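import Mathlib

namespace Vale.Agent.P038

open Finset
open scoped Pointwise

variable {G : Type*} [Group G] [DecidableEq G]

/-- right translate -/
def rsh (A : Finset G) (g : G) : Finset G := A.image (fun x => x * g)

/-- left translate -/
def lsh (g : G) (B : Finset G) : Finset G := B.image (fun y => g * y)

theorem mem_rsh {A : Finset G} {g x : G} : x ∈ rsh A g ↔ x * g⁻¹ ∈ A := by
  unfold rsh
  rw [mem_image]
  constructor
  · rintro ⟨a, ha, rfl⟩; simpa using ha
  · intro h; exact ⟨x * g⁻¹, h, by simp⟩

theorem mem_lsh {B : Finset G} {g y : G} : y ∈ lsh g B ↔ g⁻¹ * y ∈ B := by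
  unfold lsh
  rw [mem_image]
  constructor
  · rintro ⟨a, ha, rfl⟩; simpa using ha
  · intro h; exact ⟨g⁻¹ * y, h, by simp⟩

theorem card_rsh (A : Finset G) (g : G) : (rsh A g).card = A.card :=
  card_image_of_injective _ (mul_left_injective g)

theorem card_lsh (g : G) (B : Finset G) : (lsh g B).card = B.card :=
  card_image_of_injective _ (mul_right_injective g)

theorem four_sets {α : Type*} [DecidableEq α] (U U' W W' : Finset α) :
    ((U ∪ U') ∩ (W ∩ W')).card + ((U ∩ U') ∩ (W ∪ W')).card ≤ (U ∩ W).card + (U' ∩ W').card := by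
  rw [← card_union_add_card_inter, ← card_union_add_card_inter (U ∩ W)]
  apply add_le_add
  · apply card_le_card
    intro x hx
    simp only [mem_union, mem_inter] at hx ⊢
    tauto
  · apply card_le_card
    intro x hx
    simp only [mem_union, mem_inter] at hx ⊢
    tauto


theorem prod_sub_one (A B : Finset G) (g : G) :
    (A ∪ rsh A g) * (B ∩ lsh g⁻¹ B) ⊆ A * B := by
  intro x hx
  rw [mem_mul] at hx
  obtain ⟨a, ha, b, hb, rfl⟩ := hx
  rw [mem_inter, mem_lsh] at hb
  rw [mem_union, mem_rsh] at ha
  rcases ha with ha | ha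
  · exact mul_mem_mul ha hb.1
  · have := mul_mem_mul ha hb.2
    simpa [mul_assoc] using this

theorem prod_sub_two (A B : Finset G) (g : G) :
    (A ∩ rsh A g⁻¹) * (B ∪ lsh g B) ⊆ A * B := by
  intro x hx
  rw [mem_mul] at hx
  obtain ⟨a, ha, b, hb, rfl⟩ := hx
  rw [mem_inter, mem_rsh] at ha
  rw [mem_union, mem_lsh] at hb
  rcases hb with hb | hb
  · exact mul_mem_mul ha.1 hb
  · have := mul_mem_mul ha.2 hb
    simpa [mul_assoc] using this

theorem card_A_pair (A : Finset G) (g : G) :
    (A ∪ rsh A g).card + (A ∩ rsh A g⁻¹).card = 2 * A.card := by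
  have h1 : (A ∩ rsh A g⁻¹).card = (A ∩ rsh A g).card := by
    rw [← card_rsh (A ∩ rsh A g⁻¹) g]
    congr 1
    ext x
    simp only [mem_rsh, mem_inter, inv_inv, inv_mul_cancel_right]
    tauto
  rw [h1, card_union_add_card_inter, card_rsh]
  ring

theorem card_B_pair (B : Finset G) (g : G) :
    (B ∩ lsh g⁻¹ B).card + (B ∪ lsh g B).card = 2 * B.card := by
  have h1 : (B ∩ lsh g⁻¹ B).card = (B ∩ lsh g B).card := by
    rw [← card_lsh g (B ∩ lsh g⁻¹ B)]
    congr 1
    ext x
    simp only [mem_lsh, mem_inter, inv_inv, mul_inv_cancel_left]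
    tauto
  rw [h1, add_comm, card_union_add_card_inter, card_lsh]
  ring

theorem nu_pair (A B : Finset G) (g : G) :
    ((A ∪ rsh A g) ∩ (B ∩ lsh g⁻¹ B)⁻¹).card + ((A ∩ rsh A g⁻¹) ∩ (B ∪ lsh g B)⁻¹).card
      ≤ 2 * (A ∩ B⁻¹).card := by
  have e1 : (A ∪ rsh A g) ∩ (B ∩ lsh g⁻¹ B)⁻¹ = (A ∪ rsh A g) ∩ (B⁻¹ ∩ rsh B⁻¹ g) := by
    ext x
    simp only [mem_rsh, mem_lsh, mem_inter, mem_union, mem_inv', inv_inv, mul_inv_rev]
  have e2 : ((A ∩ rsh A g⁻¹) ∩ (B ∪ lsh g B)⁻¹).card
      = ((A ∩ rsh A g) ∩ (B⁻¹ ∪ rsh B⁻¹ g)).card := by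
    rw [← card_rsh ((A ∩ rsh A g⁻¹) ∩ (B ∪ lsh g B)⁻¹) g]
    congr 1
    ext x
    simp only [mem_rsh, mem_lsh, mem_inter, mem_union, mem_inv', inv_inv, mul_inv_rev,
      inv_mul_cancel_right, inv_mul_cancel_left]
    tauto
  have e3 : (rsh A g ∩ rsh B⁻¹ g).card = (A ∩ B⁻¹).card := by
    rw [← card_rsh (A ∩ B⁻¹) g]
    congr 1
    ext x
    simp only [mem_rsh, mem_inter]
  have := four_sets A (rsh A g) B⁻¹ (rsh B⁻¹ g)
  rw [e1, e2]
  omega

theorem lex_lt (M k1 b1 a1 k b a : ℕ) (hb1 : b1 < M) (ha1 : a1 < M)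
    (h : k1 < k ∨ (k1 = k ∧ (b1 < b ∨ (b1 = b ∧ a1 < a)))) :
    k1 * (M * M) + b1 * M + a1 < k * (M * M) + b * M + a := by
  have h0 : (b1 + 1) * M ≤ M * M := Nat.mul_le_mul_right M hb1
  rcases h with h | ⟨rfl, h | ⟨rfl, h⟩⟩
  · have h1 : (k1 + 1) * (M * M) ≤ k * (M * M) := Nat.mul_le_mul_right _ h
    nlinarith
  · have h1 : (b1 + 1) * M ≤ b * M := Nat.mul_le_mul_right _ h
    nlinarith
  · omega

/-- the termination measure -/
def mu [Fintype G] (A B : Finset G) : ℕ :=
  (2 * Fintype.card G + (A ∩ B⁻¹).card - (A.card + B.card))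
      * ((Fintype.card G + 1) * (Fintype.card G + 1))
    + B.card * (Fintype.card G + 1) + (Fintype.card G - A.card)

theorem kemperman_aux [Fintype G] : ∀ n : ℕ, ∀ A B : Finset G, 1 ∈ A → 1 ∈ B →
    mu A B = n → A.card + B.card ≤ (A * B).card + (A ∩ B⁻¹).card := by
  intro n
  induction n using Nat.strong_induction_on with
  | _ n ih =>
    intro A B hA hB hmu
    by_cases h : ∀ g ∈ A ∩ B, rsh A g ⊆ A ∧ lsh g B ⊆ B
    · have h1 : A ∩ B ⊆ A ∩ B⁻¹ := by
        intro g hg
        have hgB := (h g hg).2
        have heq : lsh g B = B := eq_of_subset_of_card_le hgB (by rw [card_lsh])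
        have h1B : (1 : G) ∈ lsh g B := by rw [heq]; exact hB
        rw [mem_lsh] at h1B
        rw [mem_inter] at hg ⊢
        refine ⟨hg.1, ?_⟩
        rw [mem_inv']
        simpa using h1B
      have h2 : A ∪ B ⊆ A * B := by
        intro x hx
        rw [mem_union] at hx
        rcases hx with hx | hx
        · simpa using mul_mem_mul hx hB
        · simpa using mul_mem_mul hA hx
      have h3 := card_union_add_card_inter A B
      have h4 := card_le_card h1
      have h5 := card_le_card h2
      omega
    · simp only [not_forall] at h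
      obtain ⟨g, hg, hprog⟩ := h
      rw [mem_inter] at hg
      have cA := card_A_pair A g
      have cB := card_B_pair B g
      have cN := nu_pair A B g
      have p1 := card_le_card (prod_sub_one A B g)
      have p2 := card_le_card (prod_sub_two A B g)
      have hA1 : (1 : G) ∈ A ∪ rsh A g := mem_union_left _ hA
      have hB1 : (1 : G) ∈ B ∩ lsh g⁻¹ B := by
        rw [mem_inter, mem_lsh]; exact ⟨hB, by simpa using hg.2⟩
      have hA2 : (1 : G) ∈ A ∩ rsh A g⁻¹ := by
        rw [mem_inter, mem_rsh]; exact ⟨hA, by simpa using hg.1⟩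
      have hB2 : (1 : G) ∈ B ∪ lsh g B := mem_union_left _ hB
      have uA : ∀ X : Finset G, X.card ≤ Fintype.card G := fun X => card_le_univ X
      have nA : ∀ X Y : Finset G, (X ∩ Y).card ≤ X.card := fun X Y =>
        card_le_card inter_subset_left
      by_cases hc : A.card + B.card + ((A ∪ rsh A g) ∩ (B ∩ lsh g⁻¹ B)⁻¹).card
          ≤ (A ∪ rsh A g).card + (B ∩ lsh g⁻¹ B).card + (A ∩ B⁻¹).card
      · -- pair one
        have hlt : mu (A ∪ rsh A g) (B ∩ lsh g⁻¹ B) < n := by
          rw [← hmu]
          unfold mu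
          apply lex_lt
          · have := uA (B ∩ lsh g⁻¹ B); omega
          · omega
          · have hBle : (B ∩ lsh g⁻¹ B).card ≤ B.card := nA _ _
            have hAle : A.card ≤ (A ∪ rsh A g).card := card_le_card subset_union_left
            have hpr : (B ∩ lsh g⁻¹ B).card < B.card ∨ A.card < (A ∪ rsh A g).card := by
              by_contra hcon
              apply hprog
              have hb : (B ∩ lsh g⁻¹ B).card = B.card := by omega
              have ha : (A ∪ rsh A g).card = A.card := by omega
              have hb' : B ∩ lsh g⁻¹ B = B :=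
                eq_of_subset_of_card_le inter_subset_left (by omega)
              have ha' : A = A ∪ rsh A g :=
                eq_of_subset_of_card_le subset_union_left (by omega)
              constructor
              · intro x hx
                rw [ha']; exact mem_union_right _ hx
              · intro x hx
                rw [mem_lsh] at hx
                rw [← hb', mem_inter, mem_lsh] at hx
                simpa using hx.2
            have := uA (A ∪ rsh A g)
            have := uA A
            have := uA B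
            have := nA A B⁻¹
            have := nA (A ∪ rsh A g) (B ∩ lsh g⁻¹ B)⁻¹
            omega
        have := ih _ hlt _ _ hA1 hB1 rfl
        omega
      · -- pair two
        have hlt : mu (A ∩ rsh A g⁻¹) (B ∪ lsh g B) < n := by
          rw [← hmu]
          unfold mu
          apply lex_lt
          · have := uA (B ∪ lsh g B); omega
          · omega
          · left
            have := uA (B ∪ lsh g B)
            have := uA (A ∩ rsh A g⁻¹)
            have := uA A
            have := uA B
            have := nA A B⁻¹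
            have := nA (A ∩ rsh A g⁻¹) (B ∪ lsh g B)⁻¹
            omega
        have := ih _ hlt _ _ hA2 hB2 rfl
        omega

/-- Kemperman-type inequality: if both sets contain the identity then
`|A| + |B| ≤ |A B| + (number of representations of 1)`. -/
theorem kemperman [Fintype G] (A B : Finset G) (hA : 1 ∈ A) (hB : 1 ∈ B) :
    A.card + B.card ≤ (A * B).card + (A ∩ B⁻¹).card :=
  kemperman_aux _ A B hA hB rfl

end Vale.Agent.P038
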