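import Vale.Agent.P038.Kemperman

namespace Vale.Agent.P038

open Finset
open scoped Pointwise

variable {V : Type*} [Fintype V] [DecidableEq V] (adj : V → V → Prop) [DecidableRel adj]

/-- the automorphisms of the digraph, as a finite set of permutations -/
def autos : Finset (Equiv.Perm V) :=
  univ.filter (fun σ => ∀ x y, adj (σ x) (σ y) ↔ adj x y)

theorem mem_autos {σ : Equiv.Perm V} :
    σ ∈ autos adj ↔ ∀ x y, adj (σ x) (σ y) ↔ adj x y := by
  unfold autos
  simp

theorem one_mem_autos : (1 : Equiv.Perm V) ∈ autos adj := by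
  rw [mem_autos]; intro x y; simp

theorem mul_mem_autos {σ τ : Equiv.Perm V} (hσ : σ ∈ autos adj) (hτ : τ ∈ autos adj) :
    σ * τ ∈ autos adj := by
  rw [mem_autos] at *
  intro x y
  rw [Equiv.Perm.mul_apply, Equiv.Perm.mul_apply, hσ, hτ]

theorem inv_mem_autos {σ : Equiv.Perm V} (hσ : σ ∈ autos adj) : σ⁻¹ ∈ autos adj := by
  rw [mem_autos] at *
  intro x y
  rw [← hσ (σ⁻¹ x) (σ⁻¹ y)]
  simp

/-- automorphisms sending `v` into `W` -/
def into (v : V) (W : Finset V) : Finset (Equiv.Perm V) :=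
  (autos adj).filter (fun σ => σ v ∈ W)

theorem mem_into {v : V} {W : Finset V} {σ : Equiv.Perm V} :
    σ ∈ into adj v W ↔ σ ∈ autos adj ∧ σ v ∈ W := by
  unfold into
  rw [mem_filter]

theorem card_into
    (htrans : ∀ v w : V, ∃ σ : Equiv.Perm V, (∀ x y, adj (σ x) (σ y) ↔ adj x y) ∧ σ v = w)
    (v : V) (W : Finset V) :
    (into adj v W).card = (into adj v {v}).card * W.card := by
  have h1 : (into adj v W).card
      = ∑ w ∈ W, ((into adj v W).filter (fun σ => σ v = w)).card := by
    apply card_eq_sum_card_fiberwise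
    intro σ hσ
    exact ((mem_into adj).1 hσ).2
  rw [h1]
  have h2 : ∀ w ∈ W, ((into adj v W).filter (fun σ => σ v = w)).card
      = (into adj v {v}).card := by
    intro w hw
    obtain ⟨τ, hτ, hτv⟩ := htrans v w
    have hτ' : τ ∈ autos adj := (mem_autos adj).2 hτ
    have : (into adj v W).filter (fun σ => σ v = w) = lsh τ (into adj v {v}) := by
      ext σ
      rw [mem_lsh, mem_filter, mem_into, mem_into, mem_singleton, Equiv.Perm.mul_apply]
      constructor
      · rintro ⟨⟨h1, _⟩, h3⟩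
        refine ⟨mul_mem_autos adj (inv_mem_autos adj hτ') h1, ?_⟩
        rw [h3, ← hτv]; simp
      · rintro ⟨h1, h2⟩
        have h3 : σ v = w := by
          have h4 := congrArg τ h2
          rw [hτv] at h4
          rw [← h4]
          exact (Equiv.apply_symm_apply τ (σ v)).symm
        refine ⟨⟨?_, h3 ▸ hw⟩, h3⟩
        have := mul_mem_autos adj hτ' h1
        simpa using this
    rw [this, card_lsh]
  rw [sum_congr rfl h2, sum_const, smul_eq_mul, mul_comm]

/-- first out-neighbourhood -/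
def nbr1 (v : V) : Finset V := univ.filter (fun u => adj v u)

/-- second out-neighbourhood -/
def nbr2 (v : V) : Finset V :=
  univ.filter (fun w => w ≠ v ∧ ¬ adj v w ∧ ∃ u, adj v u ∧ adj u w)

theorem transitive_ssnc
    (hasym : ∀ u v, adj u v → ¬ adj v u)
    (htrans : ∀ v w : V, ∃ σ : Equiv.Perm V, (∀ x y, adj (σ x) (σ y) ↔ adj x y) ∧ σ v = w)
    (v : V) : (nbr1 adj v).card ≤ (nbr2 adj v).card := by
  set H := into adj v {v} with hH
  set S := into adj v (nbr1 adj v) with hS
  set T := into adj v (nbr2 adj v) with hT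
  have hirr : ∀ x, ¬ adj x x := fun x h => hasym x x h h
  have mH : ∀ σ, σ ∈ H ↔ σ ∈ autos adj ∧ σ v = v := by
    intro σ; rw [hH, mem_into, mem_singleton]
  have mS : ∀ σ, σ ∈ S ↔ σ ∈ autos adj ∧ adj v (σ v) := by
    intro σ; rw [hS, mem_into]; unfold nbr1; simp
  have mT : ∀ σ, σ ∈ T ↔ σ ∈ autos adj ∧
      (σ v ≠ v ∧ ¬ adj v (σ v) ∧ ∃ u, adj v u ∧ adj u (σ v)) := by
    intro σ; rw [hT, mem_into]; unfold nbr2; simp
  have h1H : (1 : Equiv.Perm V) ∈ H := by
    rw [mH]; exact ⟨one_mem_autos adj, by simp⟩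
  have h1B : (1 : Equiv.Perm V) ∈ H ∪ S := mem_union_left _ h1H
  have key := kemperman (H ∪ S) (H ∪ S) h1B h1B
  have hdisj : Disjoint H S := by
    rw [disjoint_left]
    intro σ h1 h2
    rw [mH] at h1
    rw [mS] at h2
    rw [h1.2] at h2
    exact hirr v h2.2
  have hcardB : (H ∪ S).card = H.card + S.card := card_union_of_disjoint hdisj
  have hinter : (H ∪ S) ∩ (H ∪ S)⁻¹ ⊆ H := by
    intro σ hσ
    rw [mem_inter, mem_inv', mem_union, mem_union] at hσ
    obtain ⟨h1, h2⟩ := hσ
    rcases h1 with h1 | h1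
    · exact h1
    · exfalso
      rw [mS] at h1
      rcases h2 with h2 | h2
      · rw [mH] at h2
        have : σ v = v := by
          have := congrArg σ h2.2
          simpa using this.symm
        rw [this] at h1
        exact hirr v h1.2
      · rw [mS] at h2
        have h3 := ((mem_autos adj).1 h1.1 v (σ⁻¹ v)).2 h2.2
        have h4 : σ (σ⁻¹ v) = v := Equiv.apply_symm_apply σ v
        rw [h4] at h3
        exact hasym _ _ h1.2 h3
  have hprod : (H ∪ S) * (H ∪ S) ⊆ (H ∪ S) ∪ T := by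
    intro ρ hρ
    rw [mem_mul] at hρ
    obtain ⟨σ, hσ, τ, hτ, rfl⟩ := hρ
    have aσ : σ ∈ autos adj := by
      rw [mem_union, mH, mS] at hσ
      rcases hσ with h | h <;> exact h.1
    have aτ : τ ∈ autos adj := by
      rw [mem_union, mH, mS] at hτ
      rcases hτ with h | h <;> exact h.1
    have aστ := mul_mem_autos adj aσ aτ
    rw [mem_union, mem_union, mH, mS, mT]
    by_cases c1 : (σ * τ) v = v
    · left; left; exact ⟨aστ, c1⟩
    by_cases c2 : adj v ((σ * τ) v)
    · left; right; exact ⟨aστ, c2⟩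
    right
    refine ⟨aστ, c1, c2, ?_⟩
    rw [Equiv.Perm.mul_apply] at c1 c2 ⊢
    rw [mem_union, mH, mS] at hσ hτ
    rcases hτ with hτ | hτ
    · rw [hτ.2] at c1 c2
      rcases hσ with hσ | hσ
      · exact absurd hσ.2 c1
      · exact absurd hσ.2 c2
    · have h3 := ((mem_autos adj).1 aσ v (τ v)).2 hτ.2
      rcases hσ with hσ | hσ
      · rw [hσ.2] at h3
        exact absurd h3 c2
      · exact ⟨σ v, hσ.2, h3⟩
  have c1 := card_le_card hinter
  have c2 := card_le_card hprod
  have c3 := card_union_le (H ∪ S) T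
  have hST : S.card ≤ T.card := by omega
  rw [hS, hT, card_into adj htrans v (nbr1 adj v), card_into adj htrans v (nbr2 adj v)] at hST
  have hpos : 0 < (into adj v {v}).card := card_pos.2 ⟨1, h1H⟩
  exact Nat.le_of_mul_le_mul_left hST hpos

end Vale.Agent.P038
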